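import Mathlib
import Vale.Agent.P025.R2.H492.Ext5
import Vale.Agent.P025.R2.H816.HK

/-!
# G-RANK2 (b): cyclic unramified covers `K(f^(1/p))`
-/

open Vale.Agent.P019P P025H492 P025H816 IntermediateField Polynomial

namespace P025H666

universe u v

/-- there is a function with divisor divisible by `p` which is not a `p`-th power -/
theorem exists_nonpow (k K : Type u) [Field k] [Field K] [Algebra k K] [CFF k K] {p : ℕ}
    (hp : p.Prime) (hpk : (p : k) ≠ 0) (hg : 1 ≤ gen k K) :
    ∃ f : Kˣ, f ∈ divU k K p ∧ f ∉ powU K p := by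
  by_contra hcon
  push Not at hcon
  have h1 : Nat.card (HK k K p) = p ^ (2 * gen k K) := card_HK hpk
  have h2 : Nat.card (HK k K p) = 1 := by
    rw [Nat.card_eq_one_iff_unique]
    refine ⟨?_, ⟨1⟩⟩
    refine Subsingleton.intro fun x y => ?_
    obtain ⟨x, rfl⟩ := QuotientGroup.mk_surjective x
    obtain ⟨y, rfl⟩ := QuotientGroup.mk_surjective y
    rw [QuotientGroup.eq, Subgroup.mem_subgroupOf]
    exact hcon _ (x⁻¹ * y).2
  rw [h2] at h1
  have h3 : 1 < p ^ (2 * gen k K) := Nat.one_lt_pow (by omega) hp.one_lt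
  omega

section cover

variable {k : Type v} {K : Type u} [Field k] [Field K] [Algebra k K] [CFF k K]

/-- the cover `K(f^(1/p))` -/
theorem exists_cover {p : ℕ} (hp : p.Prime) (hpk : (p : k) ≠ 0) {f : K}
    (hdiv : ∀ P : Plk k K, (p : ℤ) ∣ ord P f) (hpow : ∀ g : K, g ^ p ≠ f) :
    ∃ (L : Type u) (_ : Field L) (_ : Algebra k L) (_ : Algebra K L) (_ : IsScalarTower k K L)
      (_ : FiniteDimensional K L) (_ : CFF k L) (y : L), y ^ p = algebraMap K L f ∧ K⟮y⟯ = ⊤ ∧
      IsGalois K L ∧ IsCyclic (L ≃ₐ[K] L) ∧ Module.finrank K L = p ∧ IsUnr k K L := by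
  have hac : IsAlgClosed k := CFF.ac (k := k) (F := K)
  have hirr : Irreducible (X ^ p - C f) := X_pow_sub_C_irreducible_of_prime hp hpow
  have : NeZero p := ⟨hp.ne_zero⟩
  have : NeZero (p : k) := ⟨hpk⟩
  have hζ : (primitiveRoots p K).Nonempty := by
    obtain ⟨ζ, hζ⟩ := HasEnoughRootsOfUnity.exists_primitiveRoot k p
    exact ⟨algebraMap k K ζ, (mem_primitiveRoots hp.pos).2
      (hζ.map_of_injective (algebraMap k K).injective)⟩
  let L := (X ^ p - C f).SplittingField
  have hfd : FiniteDimensional K L := inferInstance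
  have : IsScalarTower k K L := inferInstance
  have hcff : CFF k L := cff_of_finite (K := K)
  have hdeg : (X ^ p - C f).degree ≠ 0 := by
    rw [degree_X_pow_sub_C hp.pos]
    exact_mod_cast hp.ne_zero
  obtain ⟨y, hy⟩ : ∃ y : L, y ^ p = algebraMap K L f := by
    have hs := SplittingField.splits (X ^ p - C f : K[X])
    obtain ⟨y, hy⟩ := hs.exists_eval_eq_zero (by rwa [degree_map])
    refine ⟨y, ?_⟩
    rw [eval_map, eval₂_sub, eval₂_X_pow, eval₂_C, sub_eq_zero] at hy
    exact hy
  have htop : K⟮y⟯ = ⊤ := IntermediateField.adjoin_root_eq_top_of_isSplittingField hζ hirr hy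
  refine ⟨L, inferInstance, inferInstance, inferInstance, inferInstance, inferInstance, hcff, y,
    hy, htop, isGalois_of_isSplittingField_X_pow_sub_C hζ hirr L,
    isCyclic_of_isSplittingField_X_pow_sub_C hζ hirr L,
    finrank_of_isSplittingField_X_pow_sub_C hζ hirr L, ?_⟩
  exact isUnr_kummer hpk hy htop hdiv

end cover

end P025H666
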