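import Mathlib
import Vale.Agent.P025.R2.H816.J07
import Vale.Agent.P025.R2.H492.Ext5
import Vale.Agent.P025.R2.H587.HTDefs

/-!
# G-RANK2 (b4): functions with prescribed set of poles; divisibility of divisors in the two
languages
-/

open Vale.Agent.P019P P025H492 P025H587

namespace P025H666

universe u v

section poles

variable {k : Type v} {K : Type u} [Field k] [Field K] [Algebra k K] [CFF k K]

/-- a function whose only pole is `P`, of given large order -/
theorem exists_one_pole (P : Plk k K) {N : ℕ} (hN : 2 * gen k K ≤ N) :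
    ∃ z : K, z ≠ 0 ∧ ord P z = -N ∧ ∀ Q, Q ≠ P → 0 ≤ ord Q z := by
  obtain ⟨z, hz0, hz, hzP⟩ := h4_exact (D := Finsupp.single P (N : ℤ)) P (by
    rw [dg_sgl]; exact_mod_cast hN)
  refine ⟨z, hz0, by rw [hzP, Finsupp.single_eq_same], fun Q hQ => ?_⟩
  have h := hz Q
  rw [Finsupp.single_eq_of_ne hQ] at h
  simpa using h

/-- a function with pole set `S`, all poles of order `N` -/
theorem exists_poles (S : Finset (Plk k K)) {N : ℕ} (hN : 2 * gen k K ≤ N) (hN1 : 1 ≤ N) :
    ∃ T : K, (∀ P ∈ S, ord P T = -N) ∧ ∀ P, P ∉ S → 0 ≤ ord P T := by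
  classical
  choose z hz0 hz1 hz2 using fun P : Plk k K => exists_one_pole P hN
  refine ⟨∑ P ∈ S, z P, fun P hP => ?_, fun P hP => ?_⟩
  · rw [(ord_sum_of_lt hP (hz0 P) fun Q hQ hQP => ?_).2, hz1]
    refine Or.inr ?_
    have h1 := hz2 Q P (Ne.symm hQP)
    rw [hz1]
    omega
  · have h1 : ∑ Q ∈ S, z Q ∈ Mge P 0 := Submodule.sum_mem _ fun Q hQ =>
      Or.inr (hz2 Q P (by rintro rfl; exact hP hQ))
    rcases mem_Mge.1 h1 with h | h
    · rw [h, ord_zero]
    · exact h

theorem transcendental_of_ord {P : Plk k K} {z : K} (h : ord P z ≠ 0) : Transcendental k z := by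
  exact (finite_of_notMem (nc_of_ord h)).1

end poles

section div

variable {k : Type v} {K : Type u} [Field k] [Field K] [Algebra k K] [CFF k K]

theorem divBy_iff {q : ℕ} {f : K} (hf : f ≠ 0) :
    DivBy k q f ↔ ∀ P : Plk k K, (q : ℤ) ∣ ord P f := by
  constructor
  · intro h P
    obtain ⟨g, hg⟩ := h P.1 P.2.1
    by_cases hg0 : g = 0
    · subst hg0
      rw [map_zero] at hg
      by_cases hq : q = 0
      · subst hq
        rw [pow_zero] at hg
        have := (val_eq_iff P hf one_ne_zero).1 (by rw [hg, map_one])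
        rw [this, ord_one]
        exact dvd_zero _
      · rw [zero_pow hq, map_eq_zero] at hg
        exact absurd hg hf
    rw [← map_pow, val_eq_iff P hf (pow_ne_zero _ hg0), ord_pow] at hg
    exact ⟨_, hg⟩
  · intro h O hO
    by_cases hT : O = ⊤
    · subst hT
      refine ⟨1, ?_⟩
      rw [map_one, one_pow]
      have h1 : ∀ x : K, (⊤ : ValuationSubring K).valuation x ≤ 1 := fun x =>
        (ValuationSubring.valuation_le_one_iff _ _).2 (ValuationSubring.mem_top x)
      refine le_antisymm (h1 f) ?_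
      have h2 := h1 f⁻¹
      rw [map_inv₀] at h2
      exact (inv_le_one₀ (zero_lt_iff.2 ((map_ne_zero _).2 hf))).1 h2
    · let P : Plk k K := ⟨O, hO, hT⟩
      obtain ⟨m, hm⟩ := h P
      obtain ⟨π, hπ0, hπ⟩ := exists_unif P
      refine ⟨π ^ m, ?_⟩
      rw [← map_pow]
      refine (val_eq_iff P hf (pow_ne_zero _ (zpow_ne_zero _ hπ0))).2 ?_
      rw [ord_pow, ord_zpow, hπ, hm]
      ring

end div

end P025H666
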