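import Mathlib
import Vale.Agent.P025.R2.H587.HTDefs

/-!
# G-RANK2 (b3): systems and their Hodge-Tate forms go up in extensions
-/

open P025H587 TensorProduct

namespace P025H666

universe u v w

section der

/-- derivations extend to algebraic separable extensions -/
theorem exists_der {R K L : Type*} [CommRing R] [Field K] [Field L] [Algebra R K] [Algebra R L]
    [Algebra K L] [IsScalarTower R K L] [Algebra.IsSeparable K L] (D : Derivation R K K) :
    ∃ D' : Derivation R L L, ∀ x, D' (algebraMap K L x) = algebraMap K L (D x) := by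
  have h1 : Algebra.FormallyEtale K L := Algebra.FormallyEtale.of_isSeparable K L
  let e := KaehlerDifferential.tensorKaehlerEquivOfFormallyEtale R K L
  let φ : Ω[K⁄R] →ₗ[K] L := (Algebra.linearMap K L).comp D.liftKaehlerDifferential
  let ψ : L ⊗[K] Ω[K⁄R] →ₗ[L] L := TensorProduct.AlgebraTensorModule.lift
    ((LinearMap.toSpanSingleton L (Ω[K⁄R] →ₗ[K] L) φ))
  refine ⟨(ψ.comp e.symm.toLinearMap).compDer (KaehlerDifferential.D R L), fun x => ?_⟩
  have h2 : e.symm (KaehlerDifferential.D R L (algebraMap K L x)) =
      1 ⊗ₜ KaehlerDifferential.D R K x :=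
    KaehlerDifferential.tensorKaehlerEquivOfFormallyEtale_symm_D_algebraMap R K L x
  change ψ (e.symm (KaehlerDifferential.D R L (algebraMap K L x))) = _
  rw [h2]
  simp [ψ, φ]

end der

section up

variable {C : Type u} [NontriviallyNormedField C]
variable {K : Type v} {L : Type w} [Field K] [Field L] [Algebra C K] [Algebra C L] [Algebra K L]
  [IsScalarTower C K L]

theorem val_up (O : ValuationSubring L) {x y : K}
    (h : (O.comap (algebraMap K L)).valuation x = (O.comap (algebraMap K L)).valuation y) :
    O.valuation (algebraMap K L x) = O.valuation (algebraMap K L y) := by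
  by_cases hx : x = 0
  · subst hx
    rw [map_zero] at h
    have : y = 0 := (map_eq_zero _).1 h.symm
    rw [this]
  have hy : y ≠ 0 := by
    rintro rfl
    rw [map_zero] at h
    exact hx ((map_eq_zero _).1 h)
  have h1 : x / y ∈ O.comap (algebraMap K L) := by
    rw [← ValuationSubring.valuation_le_one_iff, map_div₀, h,
      div_self ((map_ne_zero _).2 hy)]
  have h2 : y / x ∈ O.comap (algebraMap K L) := by
    rw [← ValuationSubring.valuation_le_one_iff, map_div₀, h,
      div_self ((map_ne_zero _).2 hy)]
  rw [ValuationSubring.mem_comap, ← ValuationSubring.valuation_le_one_iff, map_div₀, map_div₀]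
    at h1 h2
  have hx' : O.valuation (algebraMap K L x) ≠ 0 := by simpa using hx
  have hy' : O.valuation (algebraMap K L y) ≠ 0 := by simpa using hy
  exact le_antisymm ((div_le_one₀ (zero_lt_iff.2 hy')).1 h1) ((div_le_one₀ (zero_lt_iff.2 hx')).1 h2)

theorem divBy_up {q : ℕ} {f : K} (h : DivBy C q f) : DivBy C q (algebraMap K L f) := by
  intro O hO
  obtain ⟨g, hg⟩ := h (O.comap (algebraMap K L)) (fun c => by
    rw [ValuationSubring.mem_comap, ← IsScalarTower.algebraMap_apply]
    exact hO c)
  refine ⟨algebraMap K L g, ?_⟩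
  rw [← map_pow] at hg
  rw [← map_pow, ← map_pow]
  exact val_up O hg

theorem isSys_up {p : ℕ} {f : ℕ → K} (h : IsSys C p f) :
    IsSys C p (fun m => algebraMap K L (f m)) where
  ne m := (map_ne_zero _).2 (h.ne m)
  div m := divBy_up (h.div m)
  succ m := by
    obtain ⟨g, hg⟩ := h.succ m
    exact ⟨algebraMap K L g, by rw [hg, map_mul, map_pow]⟩

theorem isNm_comap {w : AbsoluteValue L ℝ} (hw : IsNm C w) :
    IsNm C (w.comp (algebraMap K L).injective) where
  na x y := by
    change w (algebraMap K L (x + y)) ≤ max (w (algebraMap K L x)) (w (algebraMap K L y))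
    rw [map_add]
    exact hw.na _ _
  const c := by
    have := hw.const c
    rw [IsScalarTower.algebraMap_apply C K L] at this
    exact this

theorem isTheta_up {p : ℕ} {D : Derivation C K K} {D' : Derivation C L L}
    (hD : ∀ x, D' (algebraMap K L x) = algebraMap K L (D x)) {f : ℕ → K} {θ : K}
    (h : IsTheta p D f θ) : IsTheta p D' (fun m => algebraMap K L (f m)) (algebraMap K L θ) := by
  intro w hw
  obtain ⟨A, hA⟩ := h _ (isNm_comap (K := K) hw)
  refine ⟨A, fun m => ?_⟩
  rw [hD, ← map_div₀, ← map_sub]
  exact hA m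

end up

end P025H666
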