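import Mathlib
import Vale.Agent.P025.R2.H666.Cov
import Vale.Agent.P025.R2.H666.Up
import Vale.Agent.P025.R2.H666.Poles
import Vale.Agent.P025.R2.H670.DerOrd

/-!
# G-RANK2, assembly 1: a cover with two zeros of the Hodge-Tate form
-/

open Vale.Agent.P019P P025H492 P025H816 P025H587

namespace P025H666

universe u

/-- the order of the form `θ / D` at the place `P` is `n`: `ord θ - ord (D s) = n` for every
uniformizer `s`. -/
def OrdForm {C K : Type*} [Field C] [Field K] [Algebra C K] [CFF C K] (D : Derivation C K K)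
    (θ : K) (P : Plk C K) (n : ℤ) : Prop :=
  ∀ s : K, ord P s = 1 → ord P θ - ord P (D s) = n

theorem OrdForm.of_one {C K : Type*} [Field C] [Field K] [Algebra C K] [CFF C K] [CharZero C]
    {D : Derivation C K K} (hD : D ≠ 0) {θ : K} {P : Plk C K} {n : ℤ} {s : K} (hs : ord P s = 1)
    (h : ord P θ - ord P (D s) = n) : OrdForm D θ P n := by
  intro s' hs'
  have h1 := (P025H670.ord_der hD hs (y := s') (by rw [hs']; exact one_ne_zero)).2
  rw [h1, hs', sub_self, zero_add, h]

theorem OrdForm.up {C K L : Type*} [Field C] [Field K] [Field L] [Algebra C K] [Algebra C L]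
    [Algebra K L] [IsScalarTower C K L] [FiniteDimensional K L] [CFF C K] [CFF C L] [CharZero C]
    (hu : IsUnr C K L) {D : Derivation C K K} {D' : Derivation C L L} (hD' : D' ≠ 0)
    (hDD : ∀ x, D' (algebraMap K L x) = algebraMap K L (D x)) {θ : K} {P : Plk C L} {n : ℤ}
    (h : OrdForm D θ (down K P) n) : OrdForm D' (algebraMap K L θ) P n := by
  obtain ⟨s, -, hs⟩ := exists_unif (down K P)
  refine OrdForm.of_one hD' (s := algebraMap K L s) ?_ ?_
  · rw [hu.ord_algebraMap, hs]
  · rw [hDD, hu.ord_algebraMap, hu.ord_algebraMap, h s hs]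

theorem der_up_ne {C K L : Type*} [Field C] [Field K] [Field L] [Algebra C K] [Algebra C L]
    [Algebra K L] [IsScalarTower C K L] {D : Derivation C K K} {D' : Derivation C L L}
    (hDD : ∀ x, D' (algebraMap K L x) = algebraMap K L (D x)) (hD : D ≠ 0) : D' ≠ 0 := by
  rintro rfl
  apply hD
  ext x
  have h := hDD x
  rw [Derivation.coe_zero, Pi.zero_apply] at h
  exact (map_eq_zero (algebraMap K L)).1 h.symm

/-- there is a cyclic unramified cover on which the form has at least two zeros of the same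
order -/
theorem asm1 {C K : Type u} [NontriviallyNormedField C] [CharZero C] [Field K] [Algebra C K]
    [CFF C K] {p : ℕ} (hp : p.Prime) (hg : 1 ≤ gen C K) {D : Derivation C K K} (hD : D ≠ 0)
    {f : ℕ → K} {θ : K} (hf : IsSys C p f) (hθ : IsTheta p D f θ) {P : Plk C K} {n : ℤ}
    (hP : OrdForm D θ P n) :
    ∃ (L : Type u) (_ : Field L) (_ : Algebra C L) (_ : Algebra K L) (_ : IsScalarTower C K L)
      (_ : FiniteDimensional K L) (_ : CFF C L), IsGalois K L ∧ Group.IsSolvable (L ≃ₐ[K] L) ∧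
      IsUnr C K L ∧ ∃ (D' : Derivation C L L) (f' : ℕ → L) (θ' : L), D' ≠ 0 ∧ IsSys C p f' ∧
      IsTheta p D' f' θ' ∧ (θ ≠ 0 → θ' ≠ 0) ∧ ∃ S : Finset (Plk C L), 1 < S.card ∧ ∀ Q ∈ S, OrdForm D' θ' Q n := by
  obtain ⟨g, hg1, hg2⟩ := exists_nonpow C K hp (by exact_mod_cast hp.ne_zero) hg
  obtain ⟨L, i1, i2, i3, i4, i5, i6, y, hy, htop, hgal, hcyc, hdeg, hunr⟩ :=
    exists_cover (k := C) (K := K) hp (by exact_mod_cast hp.ne_zero) (f := (g : K))
      (mem_divU.1 hg1) (fun h hh => hg2 (mem_powU'.2 ⟨h, hh⟩))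
  have hchar : CharZero K := charZero_of_injective_algebraMap (algebraMap C K).injective
  obtain ⟨D', hD'⟩ := exists_der (R := C) (K := K) (L := L) D
  have hD'0 : D' ≠ 0 := der_up_ne hD' hD
  let icomm : CommGroup (L ≃ₐ[K] L) := IsCyclic.commGroup
  refine ⟨L, i1, i2, i3, i4, i5, i6, hgal, Group.isSolvable_of_comm
    (fun a b => mul_comm (G := L ≃ₐ[K] L) a b), hunr, D', fun m => algebraMap K L (f m),
    algebraMap K L θ, hD'0, isSys_up hf, isTheta_up hD' hθ,
    fun h => (map_ne_zero (algebraMap K L)).2 h, (over_finite (L := L) P).toFinset,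
    ?_, fun Q hQ => ?_⟩
  · rw [hunr.card, hdeg]
    exact hp.one_lt
  · have h1 : down K Q = P := mem_over.1 hQ
    refine OrdForm.up hunr hD'0 hD' ?_
    rw [h1]
    exact hP

end P025H666
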