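import Mathlib
import Vale.Agent.P025.R2.H535.Closure2

/-!
# G-RANK2, assembly: subextensions of finite Galois solvable unramified extensions
-/

open Vale.Agent.P019P P025H492 P025H535

namespace P025H666

universe u

/-- `Z` is contained in a finite Galois solvable unramified extension `W` of `K`. -/
def InSol (C K Z : Type u) [Field C] [Field K] [Field Z] [Algebra C K] [Algebra C Z]
    [Algebra K Z] [CFF C K] : Prop :=
  ∃ (W : Type u) (_ : Field W) (_ : Algebra C W) (_ : Algebra K W) (_ : Algebra Z W)
    (_ : IsScalarTower C K W) (_ : IsScalarTower K Z W) (_ : IsScalarTower C Z W)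
    (_ : FiniteDimensional K W) (_ : CFF C W),
    IsGalois K W ∧ Group.IsSolvable (W ≃ₐ[K] W) ∧ IsUnr C K W

section

variable {C K Z Y : Type u} [Field C] [Field K] [Field Z] [Field Y] [Algebra C K] [Algebra C Z]
  [Algebra C Y] [Algebra K Z] [Algebra Z Y] [Algebra K Y] [IsScalarTower C K Z]
  [IsScalarTower C Z Y] [IsScalarTower C K Y] [IsScalarTower K Z Y] [CFF C K] [CFF C Z]

omit [IsScalarTower C Z Y] [IsScalarTower C K Y] in
theorem InSol.trans [CharZero K] (h1 : InSol C K Z) (h2 : InSol C Z Y) : InSol C K Y := by
  obtain ⟨W, _, _, _, _, _, _, _, _, _, hg, hs, hu⟩ := h1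
  obtain ⟨L, _, _, _, _, _, _, _, _, _, hg', hs', hu'⟩ := h2
  let : Algebra K L := ((algebraMap Z L).comp (algebraMap K Z)).toAlgebra
  have : IsScalarTower K Z L := IsScalarTower.of_algebraMap_eq' rfl
  have : IsScalarTower C K L := IsScalarTower.of_algebraMap_eq fun x => by
    rw [IsScalarTower.algebraMap_apply K Z L, ← IsScalarTower.algebraMap_apply C K Z,
      ← IsScalarTower.algebraMap_apply C Z L]
  obtain ⟨M, _, _, _, _, _, _, _, _, _, hgM, hsM, huM, -⟩ :=
    exists_galois_closure (k := C) (K := K) (Z := Z) (W := W) (L := L) hu hu'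
  let : Algebra Y M := ((algebraMap L M).comp (algebraMap Y L)).toAlgebra
  have : IsScalarTower K Y M := IsScalarTower.of_algebraMap_eq fun x => by
    change _ = algebraMap L M (algebraMap Y L (algebraMap K Y x))
    rw [IsScalarTower.algebraMap_apply K Z Y, ← IsScalarTower.algebraMap_apply Z Y L,
      ← IsScalarTower.algebraMap_apply K Z L, ← IsScalarTower.algebraMap_apply K L M]
  have : IsScalarTower C Y M := IsScalarTower.of_algebraMap_eq fun x => by
    change _ = algebraMap L M (algebraMap Y L (algebraMap C Y x))
    rw [← IsScalarTower.algebraMap_apply C Y L, ← IsScalarTower.algebraMap_apply C L M]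
  exact ⟨M, inferInstance, inferInstance, inferInstance, inferInstance, inferInstance,
    inferInstance, inferInstance, inferInstance, inferInstance, hgM, hsM, huM⟩

end

/-- a finite Galois solvable unramified extension -/
theorem InSol.self {C K W : Type u} [Field C] [Field K] [Algebra C K] [CFF C K] [Field W]
    [Algebra C W] [Algebra K W] [IsScalarTower C K W] [FiniteDimensional K W] [CFF C W]
    (hg : IsGalois K W) (hs : Group.IsSolvable (W ≃ₐ[K] W)) (hu : IsUnr C K W) : InSol C K W :=
  ⟨W, inferInstance, inferInstance, inferInstance, Algebra.id W, inferInstance, inferInstance,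
    inferInstance, inferInstance, inferInstance, hg, hs, hu⟩

end P025H666
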