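import Mathlib
import Vale.Agent.P025.R2.H666.Asm1
import Vale.Agent.P025.R2.H666.InSol
import Vale.Agent.P025.R2.H450.RnsDef
import Vale.Agent.P025.R2.H621.Defs

/-!
# G-RANK2, assembly 2: the interfaces (START), (ZERO), (LEMMA A), (MONO) as propositions, and the
cover with a function `T` whose poles all satisfy `RNS` for one prime `l`
-/

open Vale.Agent.P019P P025H492 P025H816 P025H587 P025H450 P025H544 P025H628 P025H373
open TensorProduct

namespace P025H666

universe u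

variable (C : Type u) [NontriviallyNormedField C] [IsUltrametricDist C] [CompleteSpace C]
  [IsAlgClosed C] [CharZero C]

/-- START (section 7): on a cover of `K` there is a nonzero Hodge-Tate form. -/
def Start (p : ℕ) : Prop :=
  ∀ (K : Type u) [Field K] [Algebra C K] [CFF C K], 2 ≤ gen C K →
    ∃ (W : Type u) (_ : Field W) (_ : Algebra C W) (_ : Algebra K W) (_ : IsScalarTower C K W)
      (_ : FiniteDimensional K W) (_ : CFF C W), IsGalois K W ∧ Group.IsSolvable (W ≃ₐ[K] W) ∧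
      IsUnr C K W ∧ 2 ≤ gen C W ∧ ∃ (D : Derivation C W W) (f : ℕ → W) (θ : W), D ≠ 0 ∧
      IsSys C p f ∧ IsTheta p D f θ ∧ θ ≠ 0

/-- ZERO: a nonzero form on a curve of genus at least two has a zero. -/
def Zero : Prop :=
  ∀ (K : Type u) [Field K] [Algebra C K] [CFF C K], 2 ≤ gen C K →
    ∀ (D : Derivation C K K) (θ : K), D ≠ 0 → θ ≠ 0 →
      ∃ P : Plk C K, ∀ s : K, ord P s = 1 → 1 ≤ ord P θ - ord P (D s)

/-- the prime of Lemma A for a zero of order `e - 1` -/
def IsL (p e l : ℕ) : Prop :=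
  l.Prime ∧ l ≠ p ∧ (l ∣ e ∨ ((∃ j, e = p ^ j) ∧ l = if p = 2 then 3 else 2))

/-- LEMMA A -/
def LemA (p : ℕ) : Prop :=
  ∀ (K : Type u) [Field K] [Algebra C K] [CFF C K] (D : Derivation C K K) (f : ℕ → K) (θ : K),
    D ≠ 0 → IsSys C p f → IsTheta p D f θ → θ ≠ 0 → ∀ (P : Plk C K) (e : ℕ), 2 ≤ e →
      (∀ s : K, ord P s = 1 → ord P θ - ord P (D s) = (e : ℤ) - 1) →
        ∀ l, IsL p e l → RNS p l C K P

/-- MONO -/
def Mono : Prop :=
  ∀ (K : Type u) [Field K] [Algebra C K] [CFF C K] (N l : ℕ) (P : Plk C K), RNS N l C K P →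
    ∀ [Algebra (RatFunc C) K] [IsScalarTower C (RatFunc C) K] (c : Cˣ),
      ord P (algebraMap (RatFunc C) K RatFunc.X) < 0 → RNSat C N l P c

variable {C}

theorem exists_isL {p e : ℕ} (hp : p.Prime) (he : 2 ≤ e) : ∃ l, IsL p e l := by
  by_cases h : ∃ l, l.Prime ∧ l ≠ p ∧ l ∣ e
  · obtain ⟨l, h1, h2, h3⟩ := h
    exact ⟨l, h1, h2, Or.inl h3⟩
  · push Not at h
    have h1 : ∃ j, e = p ^ j := by
      refine ⟨_, Nat.eq_prime_pow_of_unique_prime_dvd (by omega) ?_⟩
      intro d hd hde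
      by_contra hdp
      exact h d hd hdp hde
    refine ⟨if p = 2 then 3 else 2, ?_, ?_, Or.inr ⟨h1, rfl⟩⟩
    · split_ifs
      · exact Nat.prime_three
      · exact Nat.prime_two
    · split_ifs with h2
      · omega
      · exact fun h3 => h2 h3.symm

/-- on a cover `L` of `K` there are a nonzero form of a system and a function `T` with at least
two poles, all of them satisfying `RNS` for one prime `l`. -/
theorem asm2 {p : ℕ} (hp : p.Prime) (hStart : Start C p) (hZero : Zero C) (hLemA : LemA C p)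
    (K : Type u) [Field K] [Algebra C K] [CFF C K] (hg : 2 ≤ gen C K) :
    ∃ (L : Type u) (_ : Field L) (_ : Algebra C L) (_ : Algebra K L) (_ : IsScalarTower C K L)
      (_ : FiniteDimensional K L) (_ : CFF C L), InSol C K L ∧
      ∃ (D : Derivation C L L) (f : ℕ → L) (θ : L), D ≠ 0 ∧ IsSys C p f ∧ IsTheta p D f θ ∧
      θ ≠ 0 ∧ ∃ (T : L) (l : ℕ), Transcendental C T ∧ l.Prime ∧ l ≠ p ∧
        (∃ P Q : Plk C L, P ≠ Q ∧ ord P T < 0 ∧ ord Q T < 0) ∧
        ∀ P : Plk C L, ord P T < 0 → RNS p l C L P := by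
  obtain ⟨W, _, _, _, _, _, _, hgal, hsol, hunr, hgW, D, f, θ, hD, hf, hθ, hθ0⟩ := hStart K hg
  obtain ⟨P, hP⟩ := hZero W hgW D θ hD hθ0
  obtain ⟨s, hs0, hs⟩ := exists_unif P
  have h1 := hP s hs
  obtain ⟨e, he⟩ : ∃ e : ℕ, (e : ℤ) = ord P θ - ord P (D s) + 1 :=
    ⟨(ord P θ - ord P (D s) + 1).toNat, Int.toNat_of_nonneg (by omega)⟩
  have he2 : 2 ≤ e := by omega
  have hform : OrdForm D θ P ((e : ℤ) - 1) := OrdForm.of_one hD hs (by omega)
  obtain ⟨L, _, _, _, _, _, _, hgal', hsol', hunr', D', f', θ', hD', hf', hθ', hθ0', S, hS, hSQ⟩ :=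
    asm1 hp (by omega) hD hf hθ hform
  have hcharK : CharZero K := charZero_of_injective_algebraMap (algebraMap C K).injective
  let iKL : Algebra K L := ((algebraMap W L).comp (algebraMap K W)).toAlgebra
  have hKWL : IsScalarTower K W L := IsScalarTower.of_algebraMap_eq' rfl
  have hCKL : IsScalarTower C K L := IsScalarTower.of_algebraMap_eq fun x => by
    rw [IsScalarTower.algebraMap_apply K W L, ← IsScalarTower.algebraMap_apply C K W,
      ← IsScalarTower.algebraMap_apply C W L]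
  have hfin : FiniteDimensional K L := FiniteDimensional.trans K W L
  obtain ⟨l, hl⟩ := exists_isL hp he2
  obtain ⟨T, hT1, hT2⟩ := exists_poles (k := C) (K := L) S (N := 2 * gen C L + 1) (by omega)
    (by omega)
  have hneg : ∀ Q ∈ S, ord Q T < 0 := fun Q hQ => by
    rw [hT1 Q hQ]
    omega
  have hmem : ∀ Q : Plk C L, ord Q T < 0 → Q ∈ S := fun Q hQ => by
    by_contra h
    have := hT2 Q h
    omega
  obtain ⟨P1, hP1, P2, hP2, hne⟩ := Finset.one_lt_card.1 hS
  refine ⟨L, inferInstance, inferInstance, iKL, hCKL, hfin, inferInstance,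
    InSol.trans (Z := W) (InSol.self hgal hsol hunr) (InSol.self hgal' hsol' hunr'),
    D', f', θ', hD', hf', hθ', hθ0' hθ0, T, l, transcendental_of_ord (hneg P1 hP1).ne, hl.1,
    hl.2.1, ⟨P1, P2, hne, hneg P1 hP1, hneg P2 hP2⟩, fun Q hQ => ?_⟩
  exact hLemA L D' f' θ' hD' hf' hθ' (hθ0' hθ0) Q e he2 (fun s hs => hSQ Q (hmem Q hQ) s hs) l hl

end P025H666
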