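import Mathlib
import Vale.Agent.P025.R2.H666.Asm2
import Vale.Agent.P025.R2.H16.Disc
import Vale.Agent.P025.R2.H16.AppG
import Vale.Agent.P025.R2.H613.SideMoves
import Vale.Agent.P025.R2.H816.Nsu

/-!
# G-RANK2, assembly 3: two independent forms on a cover
-/

open Vale.Agent.P019P P025H492 P025H816 P025H587 P025H450 P025H544 P025H628 P025H373 P025H210
open P025H613 P025H731 P025H16 P025H837 P025H621
open TensorProduct

namespace P025H666

universe u

section core

variable {C : Type u} [NontriviallyNormedField C] [IsUltrametricDist C] [CompleteSpace C]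
  [IsAlgClosed C] [CharZero C]
  {L : Type u} [Field L] [Algebra C L] [CFF C L] [Algebra (RatFunc C) L]
  [IsScalarTower C (RatFunc C) L] [FiniteDimensional (RatFunc C) L]
  {Om : Type u} [Field Om] [Algebra C Om] [Algebra L Om] [IsScalarTower C L Om]
  [Algebra (RatFunc C) Om] [IsScalarTower (RatFunc C) L Om] [IsGalois L Om]

/-- the two sides of a finite extension of the rational function field -/
noncomputable def sides (c : Cˣ) : Sides C (RatFunc C) (F1r C c) (F2r C c) (Wr C c) L :=
  ⟨fun P => down (RatFunc C) P ∈ P025H731.Inn C (c : C), sp (side1r c), sp (side2r c),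
    fun g hg v => wd_inn c g hg v, fun g hg d => wd_out c g hg d⟩

theorem asm3_core (hOm : KumClosed C L Om) {p : ℕ} (hp : p.Prime) (hp1 : ‖(p : C)‖ < 1) {l : ℕ}
    (hl : l.Prime) (hlp : l ≠ p) (Ch : Charts C L) (c : Cˣ) (hr : Ch.r0 ≤ ‖(c : C)‖)
    (hR : ∀ d : Pt (RatFunc C) (F2r C c) L, RNSd p l c d)
    {P1 P2 : Plk C L} (hP1 : ord P1 (TT C L) < 0) (hP2 : ord P2 (TT C L) < 0) (hP : P1 ≠ P2)
    {D : Derivation C L L} (hD : D ≠ 0) {f : ℕ → L} (hf : IsSys C p f) {θ : L}
    (hθ : IsTheta p D f θ) :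
    ∃ (Z : IntermediateField L Om) (_ : FiniteDimensional L Z) (D' : Derivation C Z Z)
      (f' : ℕ → Z), (∀ x, D' (algebraMap L Z x) = algebraMap L Z (D x)) ∧
      IsSys C p f' ∧
      ∀ θ', IsTheta p D' f' θ' → ∀ a : C, θ' ≠ algebraMap C Z a * algebraMap L Z θ := by
  obtain ⟨Z, hZ, v, hv, hpath, -⟩ :=
    lemG_app (Om := Om) hOm (N := p) (l := l) hl ((Nat.coprime_primes hl hp).2 hlp) (c := c)
      (Ch.isField c hr) hR
  have hcff : CFF C Z := P025H816.cff_of_finite (K := L)
  have hst : IsScalarTower C (RatFunc C) Z := IsScalarTower.of_algebraMap_eq fun x => by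
    rw [IsScalarTower.algebraMap_apply (RatFunc C) L Z, ← IsScalarTower.algebraMap_apply C,
      ← IsScalarTower.algebraMap_apply C L Z]
  have hchL : CharZero L := charZero_of_injective_algebraMap (algebraMap C L).injective
  have hfinZ : FiniteDimensional (RatFunc C) Z := FiniteDimensional.trans (RatFunc C) L Z
  obtain ⟨D', hD'⟩ := exists_der (L := Z) D
  have hD0 : D' ≠ 0 := by
    rintro rfl
    apply hD
    ext x
    have h1 := hD' x
    rw [Derivation.zero_apply] at h1
    exact (map_eq_zero (algebraMap L Z)).1 h1.symm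
  obtain ⟨f', hf', h⟩ := rank2_discs hp hp1 Ch c hr hv hpath hP1 hP2 hP hf (sides c)
    (moves c hp.ne_zero) hD0 (isTheta_up hD' hθ)
  exact ⟨Z, hZ, D', f', hD', hf', h⟩

end core

section final

variable (C : Type u) [NontriviallyNormedField C] [IsUltrametricDist C] [CompleteSpace C]
  [IsAlgClosed C] [CharZero C]

/-- (6.1): every system has a form -/
def HasTh (p : ℕ) : Prop :=
  ∀ (K : Type u) [Field K] [Algebra C K] [CFF C K] (D : Derivation C K K) (f : ℕ → K),
    IsSys C p f → ∃ θ, IsTheta p D f θ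

/-- the place of a pole lies on one component only -/
def OnDU : Prop :=
  ∀ (K : Type u) [Field K] [Algebra C K] [CFF C K] [Algebra (RatFunc C) K]
    [IsScalarTower C (RatFunc C) K] [FiniteDimensional (RatFunc C) K] (Ch : Charts C K) (c : Cˣ)
    (hr : Ch.r0 ≤ ‖(c : C)‖) (P : Pole C K) (d : Pt (RatFunc C) (F2r C c) K),
    OnD C c P.1 d → d = Ch.dP c hr P

/-- (8.1), the conclusion: two forms which are linearly independent over `C`, on a cover -/
def Rank2 (p : ℕ) : Prop :=
  ∀ (K : Type u) [Field K] [Algebra C K] [CFF C K], 2 ≤ gen C K →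
    ∃ (Z : Type u) (_ : Field Z) (_ : Algebra C Z) (_ : Algebra K Z) (_ : IsScalarTower C K Z)
      (_ : FiniteDimensional K Z) (_ : CFF C Z), InSol C K Z ∧
      ∃ (D : Derivation C Z Z) (f f' : ℕ → Z) (θ θ' : Z), D ≠ 0 ∧ IsSys C p f ∧ IsSys C p f' ∧
        IsTheta p D f θ ∧ IsTheta p D f' θ' ∧ θ' ≠ 0 ∧ ∀ a : C, θ ≠ algebraMap C Z a * θ'

variable {C}

omit [IsUltrametricDist C] [CompleteSpace C] [IsAlgClosed C] in
/-- finite subextensions of the maximal solvable unramified extension -/
theorem inSol_of_Nsu {K Ω : Type u} [Field K] [Field Ω] [Algebra C K] [Algebra C Ω] [Algebra K Ω]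
    [IsScalarTower C K Ω] [CFF C K] (Z : IntermediateField K (Nsu C K Ω))
    [FiniteDimensional K Z] : InSol C K Z := by
  obtain ⟨W, hZW, hW⟩ := exists_SU_le Z
  have hWf := hW.fin
  have hcW : CFF C W := P025H816.cff_of_finite (K := K)
  let iZW : Algebra Z W := (IntermediateField.inclusion hZW).toRingHom.toAlgebra
  have t1 : IsScalarTower K Z W :=
    IsScalarTower.of_algebraMap_eq fun a => ((IntermediateField.inclusion hZW).commutes a).symm
  have t2 : IsScalarTower C Z W := IsScalarTower.of_algebraMap_eq fun a => rfl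
  exact ⟨W, inferInstance, inferInstance, inferInstance, iZW, inferInstance, t1, t2,
    inferInstance, hcW, hW.gal, hW.solv, hW.unr⟩

/-- **(8.1)** Two linearly independent forms on a solvable unramified cover. -/
theorem rank2_of {p : ℕ} (hp : p.Prime) (hp1 : ‖(p : C)‖ < 1) (hStart : Start C p)
    (hZero : Zero C) (hLemA : LemA C p) (hMono : Mono C) (hHT : HasTh C p) (hOnD : OnDU C) :
    Rank2 C p := by
  intro K _ _ _ hg
  obtain ⟨L, _, _, _, _, _, _, hin, D, f, θ, hD, hf, hθ, hθ0, T, l, hT, hl, hlp,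
    ⟨P1, P2, hP, hP1, hP2⟩, hRNS⟩ := asm2 hp hStart hZero hLemA K hg
  have hchK : CharZero K := charZero_of_injective_algebraMap (algebraMap C K).injective
  have hchL : CharZero L := charZero_of_injective_algebraMap (algebraMap C L).injective
  let iR : Algebra (RatFunc C) L := algT T hT
  have hX : algebraMap (RatFunc C) L RatFunc.X = T := emb_X T hT
  have hst : IsScalarTower C (RatFunc C) L :=
    IsScalarTower.of_algebraMap_eq fun x => ((emb T hT).commutes x).symm
  have hXtr : Transcendental C (RatFunc.X : RatFunc C) := by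
    have h1 : Transcendental C (algebraMap (RatFunc C) L RatFunc.X) := by rwa [hX]
    rwa [transcendental_algebraMap_iff (algebraMap (RatFunc C) L).injective] at h1
  have hfin : FiniteDimensional (RatFunc C) L := finite_of_transcendental (k := C) hXtr
  obtain ⟨Ch⟩ := exists_charts C L
  obtain ⟨a, ha⟩ := NormedField.exists_lt_norm C Ch.r0
  have ha0 : a ≠ 0 := by
    rintro rfl
    rw [norm_zero] at ha
    exact absurd ha (not_lt.2 Ch.r0_pos.le)
  let c : Cˣ := Units.mk0 a ha0
  have hr : Ch.r0 ≤ ‖(c : C)‖ := ha.le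
  have hTT : TT C L = T := hX
  have hR : ∀ d : Pt (RatFunc C) (F2r C c) L, RNSd p l c d := by
    intro d
    obtain ⟨⟨Q, hQ⟩, rfl⟩ := (Ch.dP_bijective c hr).2 d
    exact rnsd_of_rnsat (hMono L p l Q (hRNS Q (hTT ▸ hQ)) c hQ)
      fun d' h => hOnD L Ch c hr ⟨Q, hQ⟩ d' h
  have hgal : IsGalois L (Nsu C L (AlgebraicClosure L)) := isGalois_Nsu
  obtain ⟨Z, hZ, D', f', hD', hf', h⟩ := asm3_core (Om := Nsu C L (AlgebraicClosure L))
    kumClosed_Nsu hp hp1 hl hlp Ch c hr hR (P1 := P1) (P2 := P2) (by rwa [hTT]) (by rwa [hTT]) hP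
    hD hf hθ
  have hcff : CFF C Z := P025H816.cff_of_finite (K := L)
  obtain ⟨θ', hθ'⟩ := hHT Z D' f' hf'
  have hCKZ : IsScalarTower C K Z := IsScalarTower.of_algebraMap_eq fun x => by
    rw [IsScalarTower.algebraMap_apply K L Z, ← IsScalarTower.algebraMap_apply C K L,
      ← IsScalarTower.algebraMap_apply C L Z]
  have hfinKZ : FiniteDimensional K Z := FiniteDimensional.trans K L Z
  have hD0 : D' ≠ 0 := by
    rintro rfl
    apply hD
    ext x
    have h1 := hD' x
    rw [Derivation.zero_apply] at h1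
    exact (map_eq_zero (algebraMap L Z)).1 h1.symm
  exact ⟨Z, inferInstance, inferInstance, inferInstance, hCKZ, hfinKZ, hcff, hin.trans (inSol_of_Nsu Z),
    D', f', fun m => algebraMap L Z (f m), θ', algebraMap L Z θ, hD0, hf', isSys_up hf, hθ',
    isTheta_up hD' hθ, (map_ne_zero _).2 hθ0, h θ' hθ'⟩

end final

end P025H666
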