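import Mathlib
import Vale.Agent.P025.R2.H666.Asm3
import Vale.Agent.P025.R2.H450.Mono
import Vale.Agent.P025.R2.H16.Uniq
import Vale.Agent.P025.R2.H492.Canon3

/-!
# G-RANK2, assembly 4: the inputs (ZERO), (MONO), (OnD) of assembly 3
-/

open Vale.Agent.P019P P025H492 P025H816 P025H587 P025H450 P025H544 P025H628 P025H373 P025H210
open P025H16
open TensorProduct

namespace P025H666

universe u

variable (C : Type u) [NontriviallyNormedField C] [IsUltrametricDist C] [CompleteSpace C]
  [IsAlgClosed C] [CharZero C]

omit [IsUltrametricDist C] [CompleteSpace C] [IsAlgClosed C] in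
theorem zero : Zero C := by
  intro K _ _ _ hg D θ hD _
  obtain ⟨P, hP⟩ := P025H492.exists_zero_form hD θ hg
  refine ⟨P, fun s hs => ?_⟩
  have := hP s hs
  omega

omit [CharZero C] in
theorem mono : Mono C := by
  intro K _ _ _ N l P h _ _ c hc
  exact h.at c (Or.inl hc)

theorem onDU : OnDU C := by
  intro K _ _ _ _ _ _ Ch c hr P d h
  exact onD_unique Ch c hr P h

end P025H666
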